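import Vale.Agent.P310.H853.Family
import Mathlib.Combinatorics.SimpleGraph.Sum

/-!
# Adding isolated vertices does not change `k`-WL equivalence
-/

namespace Vale.Agent.P310

open Function SimpleGraph

variable {V W U : Type} [Fintype V] [Fintype W] [Fintype U] {k : ℕ} {G : SimpleGraph V}
  {H : SimpleGraph W}

theorem exists_tuple_of_filter {α β : Type} {m : ℕ} (x : Fin m → α) (f : β → α)
    (hf : Injective f) : ∃ m' ≤ m, ∃ y : Fin m' → β, Set.range y = {q | f q ∈ Set.range x} := by
  classical
  by_cases hne : ∃ q, f q ∈ Set.range x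
  · obtain ⟨q0, hq0⟩ := hne
    refine ⟨m, le_rfl, fun i => if h : ∃ q, f q = x i then h.choose else q0, ?_⟩
    ext q
    constructor
    · rintro ⟨i, rfl⟩
      by_cases h : ∃ q, f q = x i
      · simp only [dif_pos h]
        exact ⟨i, h.choose_spec.symm⟩
      · simp only [dif_neg h]
        exact hq0
    · rintro ⟨i, hi⟩
      have h : ∃ q, f q = x i := ⟨q, hi.symm⟩
      refine ⟨i, ?_⟩
      simp only [dif_pos h]
      exact hf (h.choose_spec.trans hi)
  · refine ⟨0, by omega, fun i => i.elim0, ?_⟩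
    ext q
    constructor
    · rintro ⟨i, _⟩
      exact i.elim0
    · intro h
      exact absurd ⟨q, h⟩ hne

/-- The pair map of `Sum.inl`. -/
def inl2 (q : V × W) : (V ⊕ U) × (W ⊕ U) := (Sum.inl q.1, Sum.inl q.2)

omit [Fintype V] [Fintype W] [Fintype U] in
theorem inl2_injective : Injective (inl2 : V × W → (V ⊕ U) × (W ⊕ U)) := by
  rintro ⟨a, b⟩ ⟨c, d⟩ h
  simp only [inl2, Prod.mk.injEq, Sum.inl.injEq] at h
  exact Prod.ext h.1 h.2

theorem wlEquiv_sum_bot_of (hk : 2 ≤ k) (h : WLEquiv k G H) :
    WLEquiv k (G ⊕g (⊥ : SimpleGraph U)) (H ⊕g (⊥ : SimpleGraph U)) := by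
  classical
  refine wlEquiv_of_family (fun P => (∀ p ∈ P, (∃ q, p = inl2 q) ∨ ∃ u, p = (Sum.inr u, Sum.inr u)) ∧
    WLFam k G H {q | inl2 q ∈ P}) ?_ ?_ ?_ ?_
  · rintro P Q ⟨h1, h2⟩ hQ
    exact ⟨fun p hp => h1 p (hQ hp), h2.mono fun q hq => hQ hq⟩
  · refine ⟨fun p hp => hp.elim, (WLFam.empty (by omega)).mono ?_⟩
    intro q hq
    exact hq
  · rintro P ⟨h1, h2⟩ p hp q hq
    rcases h1 p hp with ⟨p, rfl⟩ | ⟨u, rfl⟩ <;> rcases h1 q hq with ⟨q, rfl⟩ | ⟨u', rfl⟩
    · have := h2.iso hk (p := p) (q := q) hp hq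
      simpa [inl2] using this
    · simp [inl2]
    · simp [inl2]
    · simp
  · rintro m hm x ⟨h1, h2⟩
    obtain ⟨m', hm', y, hy⟩ := exists_tuple_of_filter x (inl2 : V × W → (V ⊕ U) × (W ⊕ U))
      inl2_injective
    have h3 : WLFam k G H (Set.range y) := by rw [hy]; exact h2
    obtain ⟨e, he⟩ := h3.forth hk h m' (by omega) y
    refine ⟨Equiv.sumCongr e (Equiv.refl U), fun z => ?_⟩
    rcases z with a | u
    · refine ⟨?_, ?_⟩
      · intro p hp
        rcases hp with rfl | hp
        · exact Or.inl ⟨(a, e a), rfl⟩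
        · exact h1 p hp
      · refine (he a).mono ?_
        rintro q (hq | hq)
        · left
          have : inl2 q = (inl2 (a, e a) : (V ⊕ U) × (W ⊕ U)) := hq
          exact inl2_injective this
        · right
          rw [hy]
          exact hq
    · refine ⟨?_, ?_⟩
      · intro p hp
        rcases hp with rfl | hp
        · exact Or.inr ⟨u, rfl⟩
        · exact h1 p hp
      · refine h2.mono ?_
        rintro q (hq | hq)
        · exact absurd (congrArg Prod.fst hq) (by simp [inl2])
        · exact hq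

/-- isolated vertices -/
def Isol (G : SimpleGraph V) (a : V) : Prop := ∀ b, ¬ G.Adj a b

theorem isol_iff_degree (G : SimpleGraph V) [DecidableRel G.Adj] (a : V) :
    Isol G a ↔ G.degree a = 0 := by
  rw [← SimpleGraph.card_neighborFinset_eq_degree, Finset.card_eq_zero,
    Finset.eq_empty_iff_forall_notMem]
  constructor
  · intro h b hb
    exact h b ((SimpleGraph.mem_neighborFinset _ _ _).1 hb)
  · intro h b hb
    exact h b ((SimpleGraph.mem_neighborFinset _ _ _).2 hb)

theorem WLFam.isol_iff (hk : 2 ≤ k) {P : Set (V × W)} (h : WLFam k G H P) {p : V × W}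
    (hp : p ∈ P) : Isol G p.1 ↔ Isol H p.2 := by
  classical
  have h1 := h (fun _ => p) fun _ => hp
  have h2 := h1.degree hk ⟨0, by omega⟩
  rw [isol_iff_degree, isol_iff_degree]
  constructor
  · intro h3
    rw [← h3]
    convert h2.symm
  · intro h3
    rw [← h3]
    convert h2

omit [Fintype V] [Fintype U] in
theorem isol_sum_inl (a : V) : Isol (G ⊕g (⊥ : SimpleGraph U)) (Sum.inl a) ↔ Isol G a := by
  constructor
  · intro h b hb
    exact h (Sum.inl b) hb
  · rintro h (b | u) hb
    · exact h b hb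
    · simp at hb

omit [Fintype V] [Fintype U] in
theorem isol_sum_inr (u : U) : Isol (G ⊕g (⊥ : SimpleGraph U)) (Sum.inr u) := by
  rintro (b | u') hb
  · simp at hb
  · simp at hb

theorem wlEquiv_of_sum_bot (hk : 2 ≤ k)
    (h : WLEquiv k (G ⊕g (⊥ : SimpleGraph U)) (H ⊕g (⊥ : SimpleGraph U))) : WLEquiv k G H := by
  classical
  set G' := G ⊕g (⊥ : SimpleGraph U) with hG'
  set H' := H ⊕g (⊥ : SimpleGraph U) with hH'
  refine wlEquiv_of_family (fun P =>
    WLFam k G' H' {p | ∃ q ∈ P, ¬ Isol G q.1 ∧ p = inl2 q} ∧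
    (∀ p ∈ P, Isol G p.1 ↔ Isol H p.2) ∧ (∀ p ∈ P, ∀ q ∈ P, (p.1 = q.1 ↔ p.2 = q.2)))
    ?_ ?_ ?_ ?_
  · rintro P Q ⟨h1, h2, h3⟩ hQ
    refine ⟨h1.mono ?_, fun p hp => h2 p (hQ hp), fun p hp q hq => h3 p (hQ hp) q (hQ hq)⟩
    rintro p ⟨q, hq, h4⟩
    exact ⟨q, hQ hq, h4⟩
  · refine ⟨(WLFam.empty (by omega)).mono ?_, fun p hp => hp.elim, fun p hp => hp.elim⟩
    rintro p ⟨q, hq, _⟩
    exact hq
  · rintro P ⟨h1, h2, h3⟩ p hp q hq
    refine ⟨h3 p hp q hq, ?_⟩
    by_cases hip : Isol G p.1
    · exact iff_of_false (hip _) ((h2 p hp).1 hip _)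
    · by_cases hiq : Isol G q.1
      · exact iff_of_false (fun h => hiq _ h.symm) (fun h => (h2 q hq).1 hiq _ h.symm)
      · have h4 := (h1.iso hk (p := inl2 p) (q := inl2 q) ⟨p, hp, hip, rfl⟩ ⟨q, hq, hiq, rfl⟩).2
        exact h4
  · rintro m hm x ⟨h1, h2, h3⟩
    -- the non-isolated part as a tuple
    obtain ⟨m', hm', y, hy⟩ := exists_tuple_of_filter x
      (fun q : {q : V × W // ¬ Isol G q.1} => q.1) Subtype.val_injective
    have hy1 : Set.range (fun i => (inl2 (y i).1 : (V ⊕ U) × (W ⊕ U))) =
        {p | ∃ q ∈ Set.range x, ¬ Isol G q.1 ∧ p = inl2 q} := by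
      ext p
      constructor
      · rintro ⟨i, rfl⟩
        have h4 : y i ∈ Set.range y := ⟨i, rfl⟩
        rw [hy] at h4
        exact ⟨_, h4, (y i).2, rfl⟩
      · rintro ⟨q, hq, hqi, rfl⟩
        have h4 : (⟨q, hqi⟩ : {q : V × W // ¬ Isol G q.1}) ∈ Set.range y := by
          rw [hy]
          exact hq
        obtain ⟨i, hi⟩ := h4
        exact ⟨i, by simp only [hi]⟩
    have h1' : WLFam k G' H' (Set.range fun i => (inl2 (y i).1 : (V ⊕ U) × (W ⊕ U))) := by
      rw [hy1]; exact h1
    obtain ⟨e, he⟩ := h1'.forth hk h m' (by omega) _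
    have hiso : ∀ z, Isol G' z ↔ Isol H' (e z) := fun z =>
      (he z).isol_iff hk (p := (z, e z)) (Set.mem_insert _ _)
    have hni : ∀ a, ¬ Isol G a → ∃ b, e (Sum.inl a) = Sum.inl b ∧ ¬ Isol H b := by
      intro a ha
      have h4 : ¬ Isol H' (e (Sum.inl a)) := by
        rw [← hiso, isol_sum_inl]
        exact ha
      rcases hb : e (Sum.inl a) with b | u
      · rw [hb, isol_sum_inl] at h4
        exact ⟨b, rfl, h4⟩
      · rw [hb] at h4
        exact absurd (isol_sum_inr u) h4
    have hni' : ∀ b, ¬ Isol H b → ∃ a, e (Sum.inl a) = Sum.inl b ∧ ¬ Isol G a := by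
      intro b hb
      have h4 : ¬ Isol G' (e.symm (Sum.inl b)) := by
        rw [hiso, e.apply_symm_apply, isol_sum_inl]
        exact hb
      rcases ha : e.symm (Sum.inl b) with a | u
      · rw [ha, isol_sum_inl] at h4
        exact ⟨a, by rw [← ha, e.apply_symm_apply], h4⟩
      · rw [ha] at h4
        exact absurd (isol_sum_inr u) h4
    -- numbers of vertices
    have hcard : Fintype.card V = Fintype.card W := by
      have h4 := Fintype.card_congr e
      rw [Fintype.card_sum, Fintype.card_sum] at h4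
      omega
    have hneW : ∀ _ : V, Nonempty W := fun a => by
      rw [← Fintype.card_pos_iff, ← hcard, Fintype.card_pos_iff]
      exact ⟨a⟩
    have hni2 : ∀ a, ∃ b, ¬ Isol G a → e (Sum.inl a) = Sum.inl b ∧ ¬ Isol H b := by
      intro a
      by_cases ha : Isol G a
      · exact ⟨(hneW a).some, fun h => absurd ha h⟩
      · obtain ⟨b, hb⟩ := hni a ha
        exact ⟨b, fun _ => hb⟩
    choose f hff using hni2
    have hf := fun a ha => (hff a ha).1
    have hf' := fun a ha => (hff a ha).2
    have hcardn : Fintype.card {a // ¬ Isol G a} = Fintype.card {b // ¬ Isol H b} := by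
      refine Fintype.card_congr (Equiv.ofBijective (fun a => ⟨f a.1, hf' a.1 a.2⟩) ⟨?_, ?_⟩)
      · intro a b hab
        have h4 : f a.1 = f b.1 := congrArg Subtype.val hab
        have h5 : e (Sum.inl a.1) = e (Sum.inl b.1) := by rw [hf _ a.2, hf _ b.2, h4]
        exact Subtype.ext (Sum.inl_injective (e.injective h5))
      · rintro ⟨b, hb⟩
        obtain ⟨a, ha, ha'⟩ := hni' b hb
        refine ⟨⟨a, ha'⟩, Subtype.ext ?_⟩
        have h4 := hf a ha'
        rw [ha] at h4
        exact (Sum.inl_injective h4).symm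
    have hcardi : Fintype.card {a // Isol G a} = Fintype.card {b // Isol H b} := by
      have h4 := Fintype.card_subtype_compl (fun a => Isol G a)
      have h5 := Fintype.card_subtype_compl (fun b => Isol H b)
      have h6 := Fintype.card_subtype_le (fun a => Isol G a)
      have h7 := Fintype.card_subtype_le (fun b => Isol H b)
      omega
    -- bijection of the isolated vertices extending the given pairs
    obtain ⟨g, hg⟩ : ∃ g : {a // Isol G a} ≃ {b // Isol H b},
        ∀ a : {a // Isol G a}, ∀ b, (a.1, b) ∈ Set.range x → (g a).1 = b := by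
      have hW : ∀ a : {a // Isol G a}, ∃ b : W, ∀ b', (a.1, b') ∈ Set.range x → b = b' := by
        intro a
        by_cases hb : ∃ b, (a.1, b) ∈ Set.range x
        · obtain ⟨b, hb⟩ := hb
          exact ⟨b, fun b' hb' => (h3 _ hb _ hb').1 rfl⟩
        · exact ⟨(hneW a.1).some, fun b' hb' => absurd ⟨b', hb'⟩ hb⟩
      choose f0 hf0 using hW
      obtain ⟨g, hg⟩ := Finset.exists_equiv_extend_of_card_eq
        (α := {a // Isol G a}) (β := W) (t := Finset.univ.filter fun b => Isol H b)
        (by rw [hcardi, Fintype.card_subtype])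
        (s := Finset.univ.filter fun a => ∃ b, (a.1, b) ∈ Set.range x) (f := f0)
        (by
          intro w hw
          obtain ⟨a, ha, rfl⟩ := Finset.mem_image.1 hw
          obtain ⟨b, hb⟩ := (Finset.mem_filter.1 ha).2
          rw [hf0 a b hb]
          exact Finset.mem_filter.2 ⟨Finset.mem_univ _, (h2 _ hb).1 a.2⟩)
        (by
          intro a ha a' ha' haa
          obtain ⟨b, hb⟩ := (Finset.mem_filter.1 ha).2
          obtain ⟨b', hb'⟩ := (Finset.mem_filter.1 ha').2
          rw [hf0 a b hb, hf0 a' b' hb'] at haa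
          exact Subtype.ext ((h3 _ hb _ hb').2 haa))
      refine ⟨g.trans (Equiv.subtypeEquivRight (by simp)), fun a b hb => ?_⟩
      have h4 := hg a (Finset.mem_filter.2 ⟨Finset.mem_univ _, b, hb⟩)
      rw [hf0 a b hb] at h4
      exact h4
    -- the bijection
    let F : V → W := fun a => if ha : Isol G a then (g ⟨a, ha⟩).1 else f a
    have hFi : ∀ a (ha : Isol G a), F a = (g ⟨a, ha⟩).1 := fun a ha => dif_pos ha
    have hFn : ∀ a, ¬ Isol G a → F a = f a := fun a ha => dif_neg ha
    have hFiso : ∀ a, Isol G a ↔ Isol H (F a) := by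
      intro a
      by_cases ha : Isol G a
      · rw [hFi a ha]
        exact iff_of_true ha (g ⟨a, ha⟩).2
      · rw [hFn a ha]
        exact iff_of_false ha (hf' a ha)
    have hFinj : Injective F := by
      intro a b hab
      by_cases ha : Isol G a
      · have hb : Isol G b := by rw [hFiso, ← hab, ← hFiso]; exact ha
        rw [hFi a ha, hFi b hb] at hab
        exact congrArg Subtype.val (g.injective (Subtype.ext hab))
      · have hb : ¬ Isol G b := by rw [hFiso, ← hab, ← hFiso]; exact ha
        rw [hFn a ha, hFn b hb] at hab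
        have h5 : e (Sum.inl a) = e (Sum.inl b) := by rw [hf _ ha, hf _ hb, hab]
        exact Sum.inl_injective (e.injective h5)
    have hFbij : Bijective F := (Fintype.bijective_iff_injective_and_card F).2 ⟨hFinj, hcard⟩
    refine ⟨Equiv.ofBijective F hFbij, fun z => ⟨?_, ?_, ?_⟩⟩
    · refine (he (Sum.inl z)).mono ?_
      rintro p ⟨q, hq | hq, hqi, rfl⟩
      · left
        subst hq
        simp only [inl2, Equiv.ofBijective_apply, Prod.mk.injEq, true_and]
        rw [hFn z hqi, hf z hqi]
      · right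
        rw [hy1]
        exact ⟨q, hq, hqi, rfl⟩
    · rintro p (rfl | hp)
      · exact hFiso z
      · exact h2 p hp
    · -- the new pair against the old ones
      have key : ∀ q ∈ Set.range x, (z = q.1 ↔ F z = q.2) := by
        intro q hq
        by_cases hz : Isol G z
        · by_cases hqi : Isol G q.1
          · have h4 : F q.1 = q.2 := by
              rw [hFi q.1 hqi]
              exact hg ⟨q.1, hqi⟩ q.2 hq
            rw [← h4]
            exact ⟨fun h => congrArg F h, fun h => hFinj h⟩
          · refine iff_of_false (fun h => hqi (h ▸ hz)) (fun h => hqi ?_)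
            rw [h2 q hq, ← h, ← hFiso]
            exact hz
        · by_cases hqi : Isol G q.1
          · refine iff_of_false (fun h => hz (h ▸ hqi)) (fun h => hz ?_)
            rw [hFiso, h, ← h2 q hq]
            exact hqi
          · have h4 := ((he (Sum.inl z)).iso hk (p := (Sum.inl z, e (Sum.inl z)))
              (q := inl2 q) (Set.mem_insert _ _) (Set.mem_insert_of_mem _ (by
                rw [hy1]; exact ⟨q, hq, hqi, rfl⟩))).1
            rw [hf z hz] at h4
            rw [hFn z hz]
            constructor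
            · intro h5
              exact Sum.inl_injective (h4.1 (by rw [h5]; rfl))
            · intro h5
              exact Sum.inl_injective (h4.2 (by rw [h5]; rfl))
      rintro p (rfl | hp) q (rfl | hq)
      · exact iff_of_true rfl rfl
      · exact key q hq
      · have := key p hp
        rw [eq_comm, this]
        exact eq_comm
      · exact h3 p hp q hq

/-- Adding isolated vertices does not change `k`-WL equivalence. -/
theorem wlEquiv_sum_bot (hk : 2 ≤ k) :
    WLEquiv k (G ⊕g (⊥ : SimpleGraph U)) (H ⊕g (⊥ : SimpleGraph U)) ↔ WLEquiv k G H :=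
  ⟨wlEquiv_of_sum_bot hk, wlEquiv_sum_bot_of hk⟩

end Vale.Agent.P310
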