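import Mathlib

/-!
# Elementary asymptotics for the final assembly
-/

namespace Vale.Agent.P310

open Filter Topology

/-- Every large `n` lies between two consecutive values of `f`. -/
theorem eventually_between (f : ℕ → ℕ) (hf : ∀ b, b ≤ f b) (b₀ : ℕ) :
    ∀ᶠ n in atTop, ∃ b, b₀ ≤ b ∧ f b ≤ n ∧ n < f (b + 1) := by
  classical
  filter_upwards [eventually_ge_atTop (f b₀)] with n hn
  have h0 : b₀ ≤ n := (hf b₀).trans hn
  refine ⟨Nat.findGreatest (fun b => f b ≤ n) n, Nat.le_findGreatest h0 hn,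
    Nat.findGreatest_spec (P := fun b => f b ≤ n) h0 hn, ?_⟩
  by_contra hlt
  push Not at hlt
  have h1 : Nat.findGreatest (fun b => f b ≤ n) n + 1 ≤ n := (hf _).trans hlt
  have h2 := Nat.le_findGreatest (P := fun b => f b ≤ n) h1 hlt
  omega

/-- If `b ^ g ≤ K * ((2 * b + z) ^ c + τ + 1)`, `c < g`, and `b` is large, then
`b ^ (g - 1) ≤ τ`. -/
theorem le_of_time {c g K z b τ : ℕ} (hcg : c + 1 ≤ g) (hb : K * (3 ^ c + 1) + z + 1 ≤ b)
    (h : b ^ g ≤ K * ((2 * b + z) ^ c + τ + 1)) : b ^ (g - 1) ≤ τ := by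
  by_contra hlt
  push Not at hlt
  have hb0 : 0 < b := by omega
  have h1 : (2 * b + z) ^ c ≤ 3 ^ c * b ^ (g - 1) := by
    calc (2 * b + z) ^ c ≤ (3 * b) ^ c := Nat.pow_le_pow_left (by omega) c
      _ = 3 ^ c * b ^ c := mul_pow _ _ _
      _ ≤ 3 ^ c * b ^ (g - 1) :=
        Nat.mul_le_mul_left _ (Nat.pow_le_pow_right hb0 (by omega))
  have h2 : (2 * b + z) ^ c + τ + 1 ≤ (3 ^ c + 1) * b ^ (g - 1) := by
    rw [add_mul, one_mul]
    omega
  have h3 : b * b ^ (g - 1) ≤ (K * (3 ^ c + 1)) * b ^ (g - 1) := by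
    calc b * b ^ (g - 1) = b ^ g := by
          rw [mul_comm, ← pow_succ]
          congr 1
          omega
      _ ≤ K * ((2 * b + z) ^ c + τ + 1) := h
      _ ≤ K * ((3 ^ c + 1) * b ^ (g - 1)) := Nat.mul_le_mul_left _ h2
      _ = (K * (3 ^ c + 1)) * b ^ (g - 1) := by ring
  have h4 : b ≤ K * (3 ^ c + 1) := Nat.le_of_mul_le_mul_right h3 (Nat.pow_pos hb0)
  omega

theorem poly_le {C E b n : ℕ} (hb : C * 2 ^ E + 1 ≤ b) (h : n ≤ C * (b + 1) ^ E) :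
    n ≤ b ^ (E + 1) := by
  calc n ≤ C * (b + 1) ^ E := h
    _ ≤ C * (2 * b) ^ E := Nat.mul_le_mul_left _ (Nat.pow_le_pow_left (by omega) E)
    _ = (C * 2 ^ E) * b ^ E := by rw [mul_pow]; ring
    _ ≤ b * b ^ E := Nat.mul_le_mul_right _ (by omega)
    _ = b ^ (E + 1) := by ring

/-- The exponents: with `c = 1 / (8 (E + 1))` and `g = k / 4`. -/
theorem rpow_le {E k b n : ℕ} (hk : 16 ≤ k) (hb : 1 ≤ b) (hn : n ≤ b ^ (E + 1)) :
    (n : ℝ) ^ ((1 / (8 * (E + 1)) : ℝ) * k) ≤ ((b ^ (k / 4 - 1) : ℕ) : ℝ) := by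
  have hb' : (1 : ℝ) ≤ b := by exact_mod_cast hb
  have h1 : (n : ℝ) ≤ (b : ℝ) ^ ((E + 1 : ℕ) : ℝ) := by
    rw [Real.rpow_natCast]
    exact_mod_cast hn
  have hc : (0 : ℝ) ≤ (1 / (8 * (E + 1)) : ℝ) * k := by positivity
  calc (n : ℝ) ^ ((1 / (8 * (E + 1)) : ℝ) * k)
      ≤ ((b : ℝ) ^ ((E + 1 : ℕ) : ℝ)) ^ ((1 / (8 * (E + 1)) : ℝ) * k) :=
        Real.rpow_le_rpow (Nat.cast_nonneg _) h1 hc
    _ = (b : ℝ) ^ (((E + 1 : ℕ) : ℝ) * ((1 / (8 * (E + 1)) : ℝ) * k)) := by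
        rw [← Real.rpow_mul (by positivity)]
    _ = (b : ℝ) ^ ((k : ℝ) / 8) := by
        congr 1
        push_cast
        have : (E : ℝ) + 1 ≠ 0 := by positivity
        field_simp
    _ ≤ (b : ℝ) ^ (((k / 4 - 1 : ℕ) : ℝ)) := by
        apply Real.rpow_le_rpow_of_exponent_le hb'
        have h2 : k ≤ 8 * (k / 4 - 1) := by omega
        have h3 : (k : ℝ) ≤ 8 * ((k / 4 - 1 : ℕ) : ℝ) := by exact_mod_cast h2
        linarith
    _ = ((b ^ (k / 4 - 1) : ℕ) : ℝ) := by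
        rw [Real.rpow_natCast]
        push_cast
        rfl

theorem pow_le_two_pow (E : ℕ) : ∀ᶠ m : ℕ in atTop, m ^ E ≤ 2 ^ m := by
  have h := tendsto_pow_const_div_const_pow_of_one_lt E (r := (2 : ℝ)) (by norm_num)
  have h1 : ∀ᶠ m : ℕ in atTop, (m : ℝ) ^ E / 2 ^ m < 1 :=
    h.eventually (gt_mem_nhds (by norm_num))
  filter_upwards [h1] with m hm
  have h2 : (m : ℝ) ^ E < 2 ^ m := by
    rwa [div_lt_one (by positivity)] at hm
  have h3 : ((m ^ E : ℕ) : ℝ) < ((2 ^ m : ℕ) : ℝ) := by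
    push_cast
    exact h2
  exact le_of_lt (by exact_mod_cast h3)

/-- Numbers below `b ^ E` have few bits. -/
theorem eventually_size_le (E a : ℕ) :
    ∀ᶠ b : ℕ in atTop, ∀ x < b ^ E, a + 2 * Nat.size x ≤ b := by
  obtain ⟨M, hM⟩ := (eventually_atTop.1 (pow_le_two_pow (E + E)))
  filter_upwards [eventually_ge_atTop (a + 2 * (M + (a + 4)) + 4)] with b hb x hx
  set m := (b - a) / 2 with hm
  have hm1 : M ≤ m := by omega
  have hm2 : b ≤ (a + 4) * m := by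
    have : b ≤ 2 * m + a + 2 := by omega
    nlinarith
  have hm3 : a + 4 ≤ m := by omega
  have h1 : x < 2 ^ m := by
    calc x < b ^ E := hx
      _ ≤ ((a + 4) * m) ^ E := Nat.pow_le_pow_left hm2 E
      _ ≤ (m * m) ^ E := Nat.pow_le_pow_left (Nat.mul_le_mul_right _ hm3) E
      _ = m ^ (E + E) := by rw [mul_pow, ← pow_add]
      _ ≤ 2 ^ m := hM m hm1
  have h2 : Nat.size x ≤ m := Nat.size_le.2 h1
  omega

end Vale.Agent.P310
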