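import Vale.Agent.P310.H853.Core
import Vale.Agent.P310.H853.Asym
import Vale.Agent.P310.H260.Gen
import Vale.Agent.Lib.PolyTime.Typed

/-!
# The diagonal argument: final assembly from the parts
-/

namespace Vale.Agent.P310

open Turing Filter
open Vale.Agent.Lib.PolyTime (Word pr enc)

/-- number of assignments of a constraint vertex -/
def nF (k : ℕ) : ℕ := 2 ^ (2 * (k + 3) + 1)

/-- The input word of the diagonal machine: its table, the number of additional isolated vertices,
and padding. -/
def dword (t : FTable) (extra : ℕ) (pad : Word) : Word := pr (enc t) (pr (enc extra) pad)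

/-- The Horn data of the machine `t` on the input `u`. -/
def ddata (t : FTable) (u : Word) (k : ℕ) : HData := Gen.data t u (u.length + 2) (k / 4)

/-- The number of vertices of the graphs. -/
def dsize (t : FTable) (u : Word) (k extra : ℕ) : ℕ :=
  (ddata t u k).nTot k (nF k) + min extra ((u.length + 2) ^ 40)

/-- The reduction `R` (with time `(2 |u| + |κ| + 3) ^ c` on `pr u κ`): its output is the input word
of the pair of graphs. -/
def RedSpec (R : Word → Word) : Prop :=
  ∀ k, ∃ κ : Word, ∀ (t : FTable) (extra : ℕ) (pad : Word),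
    R (pr (dword t extra pad) κ) =
      (ddata t (dword t extra pad) k).bitsN k (nF k) false (dsize t (dword t extra pad) k extra) ++
      (ddata t (dword t extra pad) k).bitsN k (nF k) true (dsize t (dword t extra pad) k extra)

/-- The graphs given by the numeric adjacency functions are `k`-WL equivalent iff the goal is not
derivable. -/
def GraphSpec : Prop :=
  ∀ (D : HData), D.Ok → ∀ k, 0 < k → 2 * D.h ≤ k → ∀ N, D.nTot k (nF k) ≤ N →
    ∃ G H : SimpleGraph (Fin N), (∀ i j : Fin N, G.Adj i j ↔ D.adjN k (nF k) false i j = true) ∧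
      (∀ i j : Fin N, H.Adj i j ↔ D.adjN k (nF k) true i j = true) ∧
      (WLEquiv k G H ↔ ¬ D.NDer 1 fun _ => 0)

/-- The Horn data simulate the machine. -/
def GenSpec : Prop :=
  ∀ (t : FTable) (w : Word) (b g : ℕ), t.Small b → 3 ≤ b → w.length < b → 1 ≤ g →
    (Gen.data t w b g).Ok ∧
      ((Gen.data t w b g).NDer 1 (fun _ => 0) ↔ ∃ n < b ^ g, t.AccAt w n)

/-- The number of vertices is a function of the table, the length of the input, and `k`, and it is
polynomially bounded. -/
def SizeSpec (E : ℕ) : Prop :=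
  (∀ t u u' k, u.length = u'.length →
    (ddata t u k).nTot k (nF k) = (ddata t u' k).nTot k (nF k)) ∧
  (∀ t k, 4 ≤ k → ∀ u, u.length + 2 ≤ (ddata t u k).nTot k (nF k)) ∧
  (∀ t k, ∃ C, ∀ u, (ddata t u k).nTot k (nF k) ≤ C * (u.length + 2) ^ E)

/-- The diagonal machine for `A`: it computes `R (pr u κ)` and then runs `A` on this word. -/
def SimSpec (R : Word → Word) (c : ℕ) : Prop :=
  ∀ (A : FinTM2) (inp : Bool → A.Γ A.k₀) (yes : A.Γ A.k₁) (κ : Word),
    ∃ (t : FTable) (K : ℕ), ∀ (u : Word) (s : ℕ) (cfg : A.Cfg),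
      stepsFrom A (initList A ((R (pr u κ)).map inp)) s = some cfg → cfg.l = none →
        ((∃ m, t.AccAt u m) ↔ (cfg.stk A.k₁).head? = some yes) ∧
        ((cfg.stk A.k₁).head? = some yes →
          ∃ m ≤ K * ((2 * u.length + κ.length + 3) ^ c + s + 1), t.AccAt u m)

/-- Any fixed table is small with respect to large bases. -/
theorem FTable.exists_small (t : FTable) : ∃ b₀, ∀ b, b₀ ≤ b → t.Small b := by
  classical
  -- a bound for all numbers in the table
  let m : ℕ := t.length + (t.map fun r => r.1 + r.2.length +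
    (r.2.map fun a => a.2.1 + a.2.2.1 + a.2.2.2).sum).sum
  refine ⟨m + 2, fun b hb => ?_⟩
  have h0 : ∀ r ∈ t, r.1 + r.2.length + (r.2.map fun a => a.2.1 + a.2.2.1 + a.2.2.2).sum ≤ m := by
    intro r hr
    have h1 := List.single_le_sum (l := t.map fun r => r.1 + r.2.length +
      (r.2.map fun a => a.2.1 + a.2.2.1 + a.2.2.2).sum) (fun _ _ => Nat.zero_le _) _
      (List.mem_map.2 ⟨r, hr, rfl⟩)
    omega
  refine ⟨by omega, fun r hr => ?_, fun r hr => ?_, fun r hr a ha => ?_⟩
  · have := h0 r hr
    omega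
  · have := h0 r hr
    omega
  · have h1 := h0 r hr
    have h2 := List.single_le_sum (l := r.2.map fun a => a.2.1 + a.2.2.1 + a.2.2.2)
      (fun _ _ => Nat.zero_le _) _ (List.mem_map.2 ⟨a, ha, rfl⟩)
    exact ⟨by omega, by omega, by omega⟩

/-- The time of any machine deciding `≡_k` is at least `n ^ (c k)` for all large `n`. -/
def StrongLowerBound : Prop :=
  ∃ c : ℝ, 0 < c ∧ ∃ k₀ : ℕ, ∀ k : ℕ, k₀ ≤ k →
    ∀ (A : FinTM2) (inp : Bool → A.Γ A.k₀) (yes : A.Γ A.k₁) (T : ℕ → ℕ),
      DecidesWL A inp yes k T → ∀ᶠ n : ℕ in atTop, (n : ℝ) ^ (c * k) ≤ (T n : ℝ)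

theorem strongLowerBound_of {R : Word → Word} {c E : ℕ} (hE : E + 1 ≤ 40) (hR : RedSpec R)
    (hG : GraphSpec) (hH : GenSpec) (hS : SizeSpec E) (hM : SimSpec R c) : StrongLowerBound := by
  refine ⟨1 / (8 * ((E : ℝ) + 1)), by positivity, 4 * (c + 1) + 16, ?_⟩
  intro k hk A inp yes T hA
  obtain ⟨κ, hκ⟩ := hR k
  obtain ⟨t, K, ht⟩ := hM A inp yes κ
  obtain ⟨b₀, hb₀⟩ := t.exists_small
  obtain ⟨hS1, hS2, hS3⟩ := hS
  obtain ⟨C, hC⟩ := hS3 t k
  -- the size for the base `b`
  let f : ℕ → ℕ := fun b => if b < 2 then b else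
    (ddata t (List.replicate (b - 2) false) k).nTot k (nF k)
  have hf : ∀ b, b ≤ f b := by
    intro b
    by_cases h : b < 2
    · simp only [f, if_pos h]
      exact le_rfl
    · simp only [f, if_neg h]
      have := hS2 t k (by omega) (List.replicate (b - 2) false)
      rw [List.length_replicate] at this
      omega
  have hf2 : ∀ u : Word, (ddata t u k).nTot k (nF k) = f (u.length + 2) := by
    intro u
    have h1 : ¬ (u.length + 2 < 2) := by omega
    simp only [f, if_neg h1]
    exact hS1 _ _ _ _ (by simp)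
  have hfC : ∀ b, 2 ≤ b → f b ≤ C * b ^ E := by
    intro b hb
    have h1 : ¬ (b < 2) := by omega
    simp only [f, if_neg h1]
    have := hC (List.replicate (b - 2) false)
    rw [List.length_replicate] at this
    have h2 : b - 2 + 2 = b := by omega
    rwa [h2] at this
  -- the bound for the length of the code of `extra`
  obtain ⟨b₁, hb₁⟩ := eventually_atTop.1
    (eventually_size_le (E + 1) (4 + 2 * (enc t : Word).length))
  have hbig := eventually_between f hf
    (b₀ + b₁ + (C * 2 ^ E + 1) + (K * (3 ^ c + 1) + (κ.length + 3) + 1) + 4)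
  filter_upwards [hbig] with n hn
  obtain ⟨b, hb, hfb, hfb'⟩ := hn
  -- `n < b ^ (E + 1)`
  have hn1 : n ≤ b ^ (E + 1) := poly_le (by omega) (hfb'.le.trans (hfC (b + 1) (by omega)))
  have hpos : 0 < f b := by
    have := hf b
    omega
  -- the word
  set extra := n - f b with hextra
  have hlen : (enc extra : Word).length = Nat.size extra := (Nat.size_eq_bits_len extra).symm ▸ rfl
  have hsz : 4 + 2 * (enc t : Word).length + 2 * (enc extra : Word).length ≤ b := by
    rw [hlen]
    exact hb₁ b (by omega) extra (by omega)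
  set pad : Word := List.replicate
    (b - (4 + 2 * (enc t : Word).length + 2 * (enc extra : Word).length)) false with hpad
  set u := dword t extra pad with hu
  have hul : u.length + 2 = b := by
    rw [hu, dword, Vale.Agent.Lib.PolyTime.length_pr, Vale.Agent.Lib.PolyTime.length_pr, hpad,
      List.length_replicate]
    omega
  have hsize : dsize t u k extra = n := by
    unfold dsize
    rw [hf2, hul]
    have h1 : extra ≤ b ^ 40 := by
      calc extra ≤ b ^ (E + 1) := by omega
        _ ≤ b ^ 40 := Nat.pow_le_pow_right (by omega) hE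
    rw [min_eq_left h1]
    omega
  obtain ⟨hok, hder⟩ := hH t u b (k / 4) (hb₀ b (by omega)) (by omega) (by omega) (by omega)
  have hdd : ddata t u k = Gen.data t u b (k / 4) := by
    unfold ddata
    rw [hul]
  rw [← hdd] at hok hder
  have hh : (ddata t u k).h = k / 4 + k / 4 := rfl
  obtain ⟨G, H, hGa, hHa, hGH⟩ := hG (ddata t u k) hok k (by omega) (by rw [hh]; omega) n (by
    rw [hf2, hul]
    exact hfb)
  have hx : R (pr u κ) = inputWord G H := by
    have h1 := hκ t extra pad
    rw [← hu, hsize] at h1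
    rw [h1, inputWord, adjBits_eq G _ hGa, adjBits_eq H _ hHa]
    rfl
  have hmain : b ^ (k / 4) ≤ K * ((2 * u.length + κ.length + 3) ^ c + T n + 1) := by
    refine diag_core hA hx ?_ fun s cfg h1 h2 => ht u s cfg h1 h2
    rw [hGH, hder]
  have hmain2 : b ^ (k / 4) ≤ K * ((2 * b + (κ.length + 3)) ^ c + T n + 1) := by
    refine hmain.trans (Nat.mul_le_mul_left _ ?_)
    have h1 : (2 * u.length + κ.length + 3) ^ c ≤ (2 * b + (κ.length + 3)) ^ c :=
      Nat.pow_le_pow_left (by omega) c
    omega
  have h3 : b ^ (k / 4 - 1) ≤ T n := le_of_time (by omega) (by omega) hmain2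
  have h4 := rpow_le (E := E) (k := k) (b := b) (n := n) (by omega) (by omega) hn1
  have h5 : ((b ^ (k / 4 - 1) : ℕ) : ℝ) ≤ (T n : ℝ) := by exact_mod_cast h3
  exact h4.trans h5

/-- In particular there is no `g(k) = o(k)` such that `≡_k` can be decided in time
`O(n ^ g(k))` for every `k`. -/
theorem StrongLowerBound.noSublinear (h : StrongLowerBound) : NoSublinearExponent := by
  obtain ⟨c, hc, k₀, h⟩ := h
  rintro ⟨g, hg, hall⟩
  have h1 : ∀ᶠ k : ℕ in atTop, ‖g k‖ ≤ c / 2 * ‖(k : ℝ)‖ := hg.def (by positivity)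
  obtain ⟨k, hk, hk1, hk2⟩ := (h1.and ((eventually_ge_atTop k₀).and (eventually_ge_atTop 2))).exists
  obtain ⟨A, inp, yes, T, hA, hT⟩ := hall k hk2
  have h2 := h k hk1 A inp yes T hA
  obtain ⟨B, hB⟩ := hT.bound
  have hkpos : (0 : ℝ) < k := by
    have : 0 < k := by omega
    exact_mod_cast this
  have hgk : g k ≤ c / 2 * k := by
    have := (Real.le_norm_self (g k)).trans hk
    rwa [Real.norm_of_nonneg hkpos.le] at this
  -- `n ^ (c k) ≤ B n ^ (c k / 2)` for all large `n`, which is absurd
  have h3 : ∀ᶠ n : ℕ in atTop, (n : ℝ) ^ (c * k / 2) ≤ B := by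
    filter_upwards [h2, hB, eventually_ge_atTop 1] with n h4 h5 h6
    have hn1 : (1 : ℝ) ≤ n := by exact_mod_cast h6
    have hn0 : (0 : ℝ) < n := by linarith
    rw [Real.norm_of_nonneg (Nat.cast_nonneg _), Real.norm_of_nonneg (by positivity)] at h5
    have hB0 : 0 ≤ B := by
      by_contra hB0
      push Not at hB0
      have : B * (n : ℝ) ^ g k < 0 := mul_neg_of_neg_of_pos hB0 (by positivity)
      have h7 : (0 : ℝ) ≤ (T n : ℝ) := Nat.cast_nonneg _
      linarith
    have h7 : (n : ℝ) ^ (c * k) ≤ B * (n : ℝ) ^ (c * k / 2) := by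
      refine h4.trans (h5.trans (mul_le_mul_of_nonneg_left ?_ hB0))
      exact Real.rpow_le_rpow_of_exponent_le hn1 (by linarith)
    have h8 : (n : ℝ) ^ (c * k) = (n : ℝ) ^ (c * k / 2) * (n : ℝ) ^ (c * k / 2) := by
      rw [← Real.rpow_add hn0]
      congr 1
      ring
    rw [h8] at h7
    exact le_of_mul_le_mul_right h7 (by positivity)
  have h4 : Tendsto (fun n : ℕ => (n : ℝ) ^ (c * k / 2)) atTop atTop :=
    (tendsto_rpow_atTop (by positivity)).comp tendsto_natCast_atTop_atTop
  have h5 := (h4.eventually_gt_atTop B).and h3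
  obtain ⟨n, h6, h7⟩ := h5.exists
  linarith

end Vale.Agent.P310
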