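import Vale.Agent.P310.WLDefs
import Vale.Agent.P310.Flat
import Vale.Agent.P310.NumDefs

/-!
# The diagonal argument, core
-/

namespace Vale.Agent.P310

open Turing

theorem map_val_finRange (N : ℕ) : (List.finRange N).map Fin.val = List.range N := by
  simp

/-- The bits of a graph on `Fin N` given by a Boolean function on numbers. -/
theorem adjBits_eq {N : ℕ} (G : SimpleGraph (Fin N)) (f : ℕ → ℕ → Bool)
    (h : ∀ i j : Fin N, G.Adj i j ↔ f i j = true) :
    adjBits G = (List.range N).flatMap fun x => (List.range N).map fun y => f x y := by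
  classical
  unfold adjBits
  rw [← map_val_finRange N, List.flatMap_map]
  refine List.flatMap_congr fun i _ => ?_
  rw [List.map_map]
  refine List.map_congr_left fun j _ => ?_
  show decide (G.Adj i j) = f i j
  by_cases hij : G.Adj i j
  · rw [(h i j).1 hij]
    simp [hij]
  · have h1 : f i j = false := by
      by_contra h2
      exact hij ((h i j).2 (by simpa using h2))
    rw [h1]
    simp [hij]

/-- The heart of the diagonal argument: if the machine `t` (on the input `u`) decides whether the
machine `A` finds the graphs `G`, `H` equivalent, and if these graphs are `k`-WL equivalent iff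
`t` does not accept `u` in less than `B` steps, then `t` needs at least `B` steps. -/
theorem diag_core {A : FinTM2} {inp : Bool → A.Γ A.k₀} {yes : A.Γ A.k₁} {k N : ℕ} {T : ℕ → ℕ}
    (hA : DecidesWL A inp yes k T) {t : FTable} {u x : List Bool} {B K Z : ℕ}
    {G H : SimpleGraph (Fin N)} (hx : x = inputWord G H)
    (hGH : WLEquiv k G H ↔ ¬ ∃ n < B, t.AccAt u n)
    (hsim : ∀ (s : ℕ) (cfg : A.Cfg), stepsFrom A (initList A (x.map inp)) s = some cfg →
      cfg.l = none → ((∃ m, t.AccAt u m) ↔ (cfg.stk A.k₁).head? = some yes) ∧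
        ((cfg.stk A.k₁).head? = some yes → ∃ m ≤ K * (Z + s + 1), t.AccAt u m)) :
    B ≤ K * (Z + T N + 1) := by
  by_contra hlt
  push Not at hlt
  obtain ⟨s, hs, cfg, h1, h2, h3⟩ := hA N G H
  rw [← hx] at h1
  obtain ⟨h4, h5⟩ := hsim s cfg h1 h2
  by_cases hE : WLEquiv k G H
  · obtain ⟨m, hm, hacc⟩ := h5 (h3.2 hE)
    refine hGH.1 hE ⟨m, lt_of_le_of_lt (hm.trans ?_) hlt, hacc⟩
    exact Nat.mul_le_mul_left _ (by omega)
  · have h6 : ∃ n < B, t.AccAt u n := by
      by_contra h7
      exact hE (hGH.2 h7)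
    obtain ⟨n, _, hn⟩ := h6
    exact hE (h3.1 (h4.1 ⟨n, hn⟩))

end Vale.Agent.P310
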