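import Vale.Agent.P310.H593.WL

/-!
# From equivalence to a family of partial isomorphisms (converse of `wlEquiv_of_family`)
-/

namespace Vale.Agent.P310

open Function

variable {V W : Type} [Fintype V] [Fintype W] {k : ℕ} {G : SimpleGraph V} {H : SimpleGraph W}

theorem exists_equiv_of_map_eq {C : Type} (f : V → C) (g : W → C)
    (h : (Finset.univ : Finset V).val.map f = (Finset.univ : Finset W).val.map g) :
    ∃ e : V ≃ W, ∀ v, g (e v) = f v := by
  classical
  have hc : ∀ c, Fintype.card {v // f v = c} = Fintype.card {w // g w = c} := by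
    intro c
    have h1 := congrArg (Multiset.count c) h
    rw [Multiset.count_map, Multiset.count_map] at h1
    rw [Fintype.card_subtype, Fintype.card_subtype, Finset.card_def, Finset.card_def,
      Finset.filter_val, Finset.filter_val]
    simpa [eq_comm] using h1
  let E : ∀ c, {v // f v = c} ≃ {w // g w = c} := fun c => Fintype.equivOfCardEq (hc c)
  refine ⟨(Equiv.sigmaFiberEquiv f).symm.trans
    ((Equiv.sigmaCongrRight E).trans (Equiv.sigmaFiberEquiv g)), fun v => ?_⟩
  exact (E (f v) ⟨v, rfl⟩).2

theorem WLSame.exists_equiv {x : Fin k → V} {x' : Fin k → W} (h : WLSame k G H x x') :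
    ∃ e : V ≃ W, ∀ y i, WLSame k G H (update x i y) (update x' i (e y)) := by
  classical
  have h1 : ∃ e : V ≃ W, ∀ r, ∀ y i, wl G k r (update x i y) = wl H k r (update x' i (e y)) := by
    refine exists_forall_round
      (fun r (e : V ≃ W) => ∀ y i, wl G k r (update x i y) = wl H k r (update x' i (e y)))
      (fun r s a hrs hP y i => wl_mono hrs (hP y i)) fun r => ?_
    have h2 : (Finset.univ : Finset V).val.map (fun y => fun i => wl G k r (update x i y)) =
        (Finset.univ : Finset W).val.map (fun y => fun i => wl H k r (update x' i y)) :=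
      congrArg Prod.snd (h (r + 1))
    obtain ⟨e, he⟩ := exists_equiv_of_map_eq _ _ h2
    exact ⟨e, fun y i => (congrFun (he y) i).symm⟩
  obtain ⟨e, he⟩ := h1
  exact ⟨e, fun y i r => he r y i⟩

theorem WLEquiv.exists_equiv (h : WLEquiv k G H) :
    ∃ e : (Fin k → V) ≃ (Fin k → W), ∀ x, WLSame k G H x (e x) := by
  classical
  have h1 : ∃ e : (Fin k → V) ≃ (Fin k → W), ∀ r, ∀ x, wl G k r x = wl H k r (e x) := by
    refine exists_forall_round
      (fun r (e : (Fin k → V) ≃ (Fin k → W)) => ∀ x, wl G k r x = wl H k r (e x))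
      (fun r s a hrs hP x => wl_mono hrs (hP x)) fun r => ?_
    obtain ⟨e, he⟩ := exists_equiv_of_map_eq _ _ (h r)
    exact ⟨e, fun x => (he x).symm⟩
  obtain ⟨e, he⟩ := h1
  exact ⟨e, fun x r => he r x⟩

/-- Stable colours do not depend on the order (and multiplicities) of the entries. -/
theorem WLSame.reindex {x : Fin k → V} {x' : Fin k → W} (h : WLSame k G H x x')
    (τ : Fin k → Fin k) : WLSame k G H (x ∘ τ) (x' ∘ τ) := by
  classical
  intro r
  refine wl_eq_of_rel (fun u u' => ∃ (x : Fin k → V) (x' : Fin k → W) (τ : Fin k → Fin k),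
    WLSame k G H x x' ∧ u = x ∘ τ ∧ u' = x' ∘ τ) ?_ ?_ r _ _ ⟨x, x', τ, h, rfl, rfl⟩
  · rintro _ _ ⟨x, x', τ, h, rfl, rfl⟩ i j
    exact ⟨h.eq_iff _ _, h.adj_iff _ _⟩
  · rintro _ _ ⟨x, x', τ, h, rfl, rfl⟩
    obtain ⟨e, he⟩ := h.exists_equiv
    refine ⟨e, fun y i => ?_⟩
    obtain ⟨j, hj⟩ : ∃ j, ∀ i', i' ≠ i → τ i' ≠ j := by
      by_contra hc
      push Not at hc
      choose f hf hf' using hc
      have h1 : Function.Injective f := by
        intro a b hab
        rw [← hf' a, ← hf' b, hab]
      exact hf ((Finite.injective_iff_surjective.1 h1 i).choose)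
        ((Finite.injective_iff_surjective.1 h1 i).choose_spec)
    refine ⟨update x j y, update x' j (e y), update τ i j, he y j, ?_, ?_⟩
    · funext i'
      by_cases hi : i' = i
      · subst hi; simp
      · simp [update_of_ne hi, update_of_ne (hj i' hi)]
    · funext i'
      by_cases hi : i' = i
      · subst hi; simp
      · simp [update_of_ne hi, update_of_ne (hj i' hi)]

/-- The family of all sets `P` of pairs such that all `k`-tuples of pairs from `P` have the same
stable colours. -/
def WLFam (k : ℕ) (G : SimpleGraph V) (H : SimpleGraph W) (P : Set (V × W)) : Prop :=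
  ∀ z : Fin k → V × W, (∀ i, z i ∈ P) → WLSame k G H (fun i => (z i).1) (fun i => (z i).2)

theorem WLFam.mono {P Q : Set (V × W)} (h : WLFam k G H P) (hQ : Q ⊆ P) : WLFam k G H Q :=
  fun z hz => h z fun i => hQ (hz i)

theorem WLFam.empty (hk : 0 < k) : WLFam k G H ∅ := fun _ hz => (hz ⟨0, hk⟩).elim

theorem WLFam.iso (hk : 2 ≤ k) {P : Set (V × W)} (h : WLFam k G H P) {p q : V × W}
    (hp : p ∈ P) (hq : q ∈ P) : (p.1 = q.1 ↔ p.2 = q.2) ∧ (G.Adj p.1 q.1 ↔ H.Adj p.2 q.2) := by
  have h1 := h (fun i => if i = ⟨0, by omega⟩ then p else q) fun i => by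
    split_ifs
    · exact hp
    · exact hq
  have h2 := h1.eq_iff ⟨0, by omega⟩ ⟨1, by omega⟩
  have h3 := h1.adj_iff ⟨0, by omega⟩ ⟨1, by omega⟩
  simp at h2 h3
  exact ⟨h2, h3⟩

theorem WLFam.forth (hk : 2 ≤ k) (hGH : WLEquiv k G H) (m : ℕ) (hm : m ≤ k)
    (x : Fin m → V × W) (h : WLFam k G H (Set.range x)) :
    ∃ e : V ≃ W, ∀ y, WLFam k G H (insert (y, e y) (Set.range x)) := by
  classical
  rcases Nat.eq_zero_or_pos m with rfl | hm0
  · -- the start
    obtain ⟨E, hE⟩ := hGH.exists_equiv
    have hcon : ∀ y : V, ∃ y' : W, E (fun _ => y) = fun _ => y' := by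
      intro y
      refine ⟨E (fun _ => y) ⟨0, by omega⟩, ?_⟩
      funext i
      exact ((hE fun _ => y).eq_iff i ⟨0, by omega⟩).1 rfl
    choose f hf using hcon
    have hinj : Function.Injective f := by
      intro a b hab
      have h1 : (fun _ : Fin k => a) = fun _ => b := by
        apply E.injective
        rw [hf, hf, hab]
      exact congrFun h1 ⟨0, by omega⟩
    have hsurj : Function.Surjective f := by
      intro w
      obtain ⟨x0, hx0⟩ := E.surjective fun _ => w
      have h1 : x0 = fun _ => x0 ⟨0, by omega⟩ := by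
        funext i
        refine ((hE x0).eq_iff i ⟨0, by omega⟩).2 ?_
        rw [hx0]
      refine ⟨x0 ⟨0, by omega⟩, ?_⟩
      have h2 := hf (x0 ⟨0, by omega⟩)
      rw [← h1, hx0] at h2
      exact (congrFun h2 ⟨0, by omega⟩).symm
    refine ⟨Equiv.ofBijective f ⟨hinj, hsurj⟩, fun y z hz => ?_⟩
    have h1 : ∀ i, z i = (y, f y) := by
      intro i
      rcases hz i with h1 | ⟨j, _⟩
      · exact h1
      · exact j.elim0
    have h2 := hE fun _ => y
    rw [hf] at h2
    have h3 : (fun i => (z i).1) = fun _ : Fin k => y := by funext i; rw [h1]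
    have h4 : (fun i => (z i).2) = fun _ : Fin k => f y := by funext i; rw [h1]
    rw [h3, h4]
    exact h2
  · -- a `k`-tuple covering the range of `x`
    let z0 : Fin k → V × W := fun i => if h : i.val < m then x ⟨i, h⟩ else x ⟨0, hm0⟩
    have hz0 : ∀ i, z0 i ∈ Set.range x := by
      intro i
      simp only [z0]
      split_ifs
      · exact ⟨_, rfl⟩
      · exact ⟨_, rfl⟩
    have hz0' : ∀ j : Fin m, z0 ⟨j, by omega⟩ = x j := by
      intro j
      simp [z0]
    obtain ⟨e, he⟩ := (h z0 hz0).exists_equiv
    refine ⟨e, fun y z hz => ?_⟩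
    by_cases hall : ∀ i, z i ∈ Set.range x
    · exact h z hall
    · push Not at hall
      obtain ⟨i0, hi0⟩ := hall
      -- positions
      have hσ : ∀ i, ∃ j : Fin k, z i ∈ Set.range x → z0 j = z i := by
        intro i
        by_cases hi : z i ∈ Set.range x
        · obtain ⟨j, hj⟩ := hi
          exact ⟨⟨j, by omega⟩, fun _ => by rw [hz0', hj]⟩
        · exact ⟨⟨0, by omega⟩, fun h => absurd h hi⟩
      choose σ hσ using hσ
      obtain ⟨j, hj⟩ : ∃ j, ∀ i, z i ∈ Set.range x → σ i ≠ j := by
        by_contra hc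
        push Not at hc
        choose f hf hf' using hc
        have h1 : Function.Injective f := by
          intro a b hab
          rw [← hf' a, ← hf' b, hab]
        obtain ⟨a, ha⟩ := Finite.injective_iff_surjective.1 h1 i0
        exact hi0 (ha ▸ hf a)
      have hzi : ∀ i, z i ∉ Set.range x → z i = (y, e y) := by
        intro i hi
        rcases hz i with h1 | h1
        · exact h1
        · exact absurd h1 hi
      have h5 := (he y j).reindex (fun i => if z i ∈ Set.range x then σ i else j)
      have h6 : (fun i => (z i).1) = (update (fun i => (z0 i).1) j y) ∘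
          (fun i => if z i ∈ Set.range x then σ i else j) := by
        funext i
        by_cases hi : z i ∈ Set.range x
        · simp only [comp_apply, if_pos hi]
          rw [update_of_ne (hj i hi), hσ i hi]
        · simp only [comp_apply, if_neg hi, update_self]
          rw [hzi i hi]
      have h7 : (fun i => (z i).2) = (update (fun i => (z0 i).2) j (e y)) ∘
          (fun i => if z i ∈ Set.range x then σ i else j) := by
        funext i
        by_cases hi : z i ∈ Set.range x
        · simp only [comp_apply, if_pos hi]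
          rw [update_of_ne (hj i hi), hσ i hi]
        · simp only [comp_apply, if_neg hi, update_self]
          rw [hzi i hi]
      rw [h6, h7]
      exact h5

end Vale.Agent.P310
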