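import Vale.Agent.P310.H44.Spec
import Vale.Agent.P310.H260.Complete
import Vale.Agent.P310.H630.GenLen
import Vale.Agent.P310.H781.Compose
import Vale.Agent.P310.H302.TM2Block
import Vale.Agent.P310.H855.Reduction

/-!
# P310: the specifications of `Main.lean` from the parts
-/

namespace Vale.Agent.P310

open Turing Filter
open Vale.Agent.Lib.PolyTime

theorem genSpec : GenSpec := fun _ _ _ _ hs hb hw hg =>
  ⟨Gen.ok hs hb hg, Gen.goal_iff hs hb hw hg⟩

theorem sizeSpec : SizeSpec 21 := by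
  refine ⟨fun t u u' k h => ?_, fun t k hk u => ?_, fun t k => ?_⟩
  · unfold ddata
    rw [h]
    exact Gen.nTot_congr t h _ _ _ _
  · exact Gen.le_nTot t u (u.length + 2) (k / 4) (by omega) (nF k)
  · obtain ⟨C, hC⟩ := Gen.exists_nTot_le t (k / 4) k (nF k)
    exact ⟨C, fun u => hC (u.length + 2) (by omega) u (by omega)⟩

theorem simBlock (A : FinTM2) (inp : Bool → A.Γ A.k₀) (yes : A.Γ A.k₁) (N : ℕ) :
    SimBlock A inp yes N := by
  refine simBlock_of_blocks (fun kn hkn => ?_) N
  obtain ⟨blk, len, K₀, num, hlen, h⟩ := exists_block A yes kn hkn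
  refine ⟨blk, len, K₀, num, hlen, fun t o e ht u S h1 h2 s cfg h3 h4 => ?_⟩
  obtain ⟨m, hm, S', h5, -, -, h6⟩ := h t o e ht u S h1 h2 s cfg h3 h4
  exact ⟨m, hm, S', h5, h6⟩

theorem simSpec {R : Word → Word} {c : ℕ} (hc : 1 ≤ c)
    (hR : ∃ (p : Prog) (w : ℕ), 2 ≤ w ∧ Clean ∅ p w R (pb c)) : SimSpec R c :=
  fun A inp yes κ => exists_composed (simBlock A inp yes) hc hR κ

/-- The lower bound, from the reduction. -/
theorem strongLowerBound_of_red {R : Word → Word} (hR : RedSpec R) (hR' : FP ∅ R) :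
    StrongLowerBound := by
  obtain ⟨p, w, c, hw, h⟩ := hR'
  have h2 : Clean ∅ p w R (pb (c + 1)) := fun s hs => by
    obtain ⟨t, ht, h1⟩ := h s hs
    exact ⟨t, ht.trans (Nat.pow_le_pow_right (by omega) (Nat.le_succ c)), h1⟩
  exact strongLowerBound_of (E := 21) (by omega) hR graphSpec genSpec sizeSpec
    (simSpec (Nat.le_add_left 1 c) ⟨p, w, hw, h2⟩)

/-- **The lower bound.** -/
theorem strongLowerBound : StrongLowerBound := by
  obtain ⟨R, hR, h⟩ := exists_reduction
  exact strongLowerBound_of_red (R := R) (fun k => ⟨kap k, fun t extra pad => h k t extra pad⟩) hR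

end Vale.Agent.P310
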